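import Vale.Agent.P139.A.Defs

/-!
# P139: the shifted standard complex Gaussian law
-/

open MeasureTheory ProbabilityTheory Metric Set
open scoped ENNReal NNReal

namespace Vale.Agent.P139.R3.H597

theorem gauss_shift (b : ℝ) : (gaussianReal 0 (1 / 2)).map (fun x => x + b) =
    (gaussianReal 0 (1 / 2)).withDensity
      (fun x => ENNReal.ofReal (Real.exp (2 * (x * b) - b ^ 2))) := by
  have h0 : (1 / 2 : ℝ≥0) ≠ 0 := by norm_num
  have hm : Measurable fun x : ℝ => ENNReal.ofReal (Real.exp (2 * (x * b) - b ^ 2)) := by fun_prop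
  rw [gaussianReal_map_add_const, gaussianReal_of_var_ne_zero _ h0,
    gaussianReal_of_var_ne_zero _ h0, ← withDensity_mul _ (measurable_gaussianPDF _ _) hm]
  congr 1
  ext x
  simp only [Pi.mul_apply, gaussianPDF, gaussianPDFReal]
  rw [← ENNReal.ofReal_mul (by positivity), mul_assoc (√(2 * Real.pi * ((1 / 2 : ℝ≥0) : ℝ)))⁻¹,
    ← Real.exp_add]
  congr 3
  push_cast
  ring

theorem map_add_std (b : ℂ) :
    (Vale.Agent.P139.A.stdComplexGaussian.map fun z => z + b) =
      Vale.Agent.P139.A.stdComplexGaussian.withDensity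
        fun z => ENNReal.ofReal (Real.exp (2 * (z * (starRingEnd ℂ) b).re - ‖b‖ ^ 2)) := by
  have hmeas : Measurable fun w : ℝ × ℝ => (⟨w.1, w.2⟩ : ℂ) :=
    Complex.measurableEquivRealProd.symm.measurable
  have hW : Measurable fun z : ℂ =>
      ENNReal.ofReal (Real.exp (2 * (z * (starRingEnd ℂ) b).re - ‖b‖ ^ 2)) := by fun_prop
  have hw : ∀ a : ℝ, Measurable fun x : ℝ => ENNReal.ofReal (Real.exp (2 * (x * a) - a ^ 2)) := by
    intro a; fun_prop
  unfold Vale.Agent.P139.A.stdComplexGaussian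
  rw [Measure.map_map (by fun_prop) hmeas]
  have e1 : ((fun z : ℂ => z + b) ∘ fun w : ℝ × ℝ => (⟨w.1, w.2⟩ : ℂ)) =
      (fun w : ℝ × ℝ => (⟨w.1, w.2⟩ : ℂ)) ∘ Prod.map (fun x : ℝ => x + b.re)
        (fun x : ℝ => x + b.im) := by
    funext w
    apply Complex.ext <;> simp
  rw [e1, ← Measure.map_map hmeas (by fun_prop),
    ← Measure.map_prod_map _ _ (by fun_prop) (by fun_prop), gauss_shift, gauss_shift,
    prod_withDensity (hw _) (hw _)]
  ext s hs
  rw [Measure.map_apply hmeas hs, withDensity_apply _ (hmeas hs), withDensity_apply _ hs,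
    setLIntegral_map hs hW hmeas]
  refine setLIntegral_congr_fun (hmeas hs) fun w _ => ?_
  rw [← ENNReal.ofReal_mul (Real.exp_pos _).le, ← Real.exp_add]
  congr 2
  have hz : ‖b‖ ^ 2 = b.re ^ 2 + b.im ^ 2 := by
    rw [← Complex.normSq_eq_norm_sq, Complex.normSq_apply]; ring
  rw [hz, Complex.mul_re, Complex.conj_re, Complex.conj_im]
  ring

end Vale.Agent.P139.R3.H597
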