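import Vale.Agent.P139.A.Defs

/-!
# P139: lower bound for the standard complex Gaussian law of a ball
-/

open MeasureTheory ProbabilityTheory Metric Set
open scoped ENNReal NNReal

namespace Vale.Agent.P139.R3.H597

theorem gauss_Ioo {r : ℝ} (hr : 0 < r) (a : ℝ) :
    ENNReal.ofReal (2 * r * ((Real.sqrt Real.pi)⁻¹ * Real.exp (-(|a| + r) ^ 2))) ≤
      gaussianReal 0 (1 / 2) (Ioo (a - r) (a + r)) := by
  rw [gaussianReal_apply 0 (by norm_num)]
  have h1 : ∀ x ∈ Ioo (a - r) (a + r),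
      ENNReal.ofReal ((Real.sqrt Real.pi)⁻¹ * Real.exp (-(|a| + r) ^ 2)) ≤
        gaussianPDF 0 (1 / 2) x := by
    intro x hx
    unfold gaussianPDF gaussianPDFReal
    apply ENNReal.ofReal_le_ofReal
    have e1 : (2 * Real.pi * ((1 / 2 : ℝ≥0) : ℝ)) = Real.pi := by
      push_cast
      ring
    have e2 : -(x - 0) ^ 2 / (2 * ((1 / 2 : ℝ≥0) : ℝ)) = -x ^ 2 := by
      push_cast
      ring
    rw [e1, e2]
    have h2 : |x| ≤ |a| + r := by
      have h3 : |x - a| < r := abs_lt.mpr ⟨by linarith [hx.1], by linarith [hx.2]⟩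
      have h4 : |x| ≤ |x - a| + |a| := by
        have := abs_add_le (x - a) a
        rwa [sub_add_cancel] at this
      linarith
    have h5 : x ^ 2 ≤ (|a| + r) ^ 2 := by
      rw [← sq_abs x]
      exact pow_le_pow_left₀ (abs_nonneg x) h2 2
    have h6 : Real.exp (-(|a| + r) ^ 2) ≤ Real.exp (-x ^ 2) := Real.exp_le_exp.mpr (by linarith)
    exact mul_le_mul_of_nonneg_left h6 (by positivity)
  calc ENNReal.ofReal (2 * r * ((Real.sqrt Real.pi)⁻¹ * Real.exp (-(|a| + r) ^ 2)))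
      = ∫⁻ _ in Ioo (a - r) (a + r),
          ENNReal.ofReal ((Real.sqrt Real.pi)⁻¹ * Real.exp (-(|a| + r) ^ 2)) := by
        rw [setLIntegral_const, Real.volume_Ioo, ← ENNReal.ofReal_mul (by positivity)]
        congr 1
        ring
    _ ≤ _ := setLIntegral_mono (measurable_gaussianPDF _ _) h1

theorem std_ball_lower {ρ : ℝ} (hρ : 0 < ρ) : ∃ C : ℝ, 0 < C ∧ ∀ z : ℂ,
    ENNReal.ofReal (Real.exp (-(C * (1 + ‖z‖ ^ 2)))) ≤
      Vale.Agent.P139.A.stdComplexGaussian (Metric.ball z ρ) := by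
  obtain ⟨r, hr⟩ : ∃ r, r = ρ / 2 := ⟨_, rfl⟩
  have hr0 : 0 < r := by rw [hr]; positivity
  obtain ⟨κ, hκ⟩ : ∃ κ, κ = (2 * r * (Real.sqrt Real.pi)⁻¹) ^ 2 := ⟨_, rfl⟩
  have hπ : 0 < Real.sqrt Real.pi := Real.sqrt_pos.mpr Real.pi_pos
  have hκ0 : 0 < κ := by rw [hκ]; positivity
  refine ⟨2 + 4 * r ^ 2 + |Real.log κ|, by positivity, ?_⟩
  intro z
  have hmeas : Measurable fun w : ℝ × ℝ => (⟨w.1, w.2⟩ : ℂ) :=
    Complex.measurableEquivRealProd.symm.measurable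
  have hsub : Ioo (z.re - r) (z.re + r) ×ˢ Ioo (z.im - r) (z.im + r) ⊆
      (fun w : ℝ × ℝ => (⟨w.1, w.2⟩ : ℂ)) ⁻¹' Metric.ball z ρ := by
    rintro ⟨x, y⟩ ⟨hx, hy⟩
    rw [mem_preimage, mem_ball, dist_eq_norm]
    have h1 : |x - z.re| < r := abs_lt.mpr ⟨by linarith [hx.1], by linarith [hx.2]⟩
    have h2 : |y - z.im| < r := abs_lt.mpr ⟨by linarith [hy.1], by linarith [hy.2]⟩
    have h3 := Complex.norm_le_abs_re_add_abs_im ((⟨x, y⟩ : ℂ) - z)
    rw [Complex.sub_re, Complex.sub_im] at h3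
    calc ‖(⟨x, y⟩ : ℂ) - z‖ ≤ |x - z.re| + |y - z.im| := h3
      _ < ρ := by rw [hr] at h1 h2; linarith
  unfold Vale.Agent.P139.A.stdComplexGaussian
  rw [Measure.map_apply hmeas isOpen_ball.measurableSet]
  refine le_trans ?_ (measure_mono hsub)
  rw [Measure.prod_prod]
  refine le_trans ?_ (mul_le_mul' (gauss_Ioo hr0 z.re) (gauss_Ioo hr0 z.im))
  rw [← ENNReal.ofReal_mul (by positivity)]
  apply ENNReal.ofReal_le_ofReal
  have hz : ‖z‖ ^ 2 = z.re ^ 2 + z.im ^ 2 := by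
    rw [← Complex.normSq_eq_norm_sq, Complex.normSq_apply]; ring
  have h1 : ∀ a : ℝ, (|a| + r) ^ 2 ≤ 2 * a ^ 2 + 2 * r ^ 2 := by
    intro a
    have := sq_nonneg (|a| - r)
    have h2 := sq_abs a
    nlinarith
  have h2 : Real.exp (-((2 + 4 * r ^ 2 + |Real.log κ|) * (1 + ‖z‖ ^ 2))) ≤
      Real.exp (Real.log κ + (-(|z.re| + r) ^ 2 + -(|z.im| + r) ^ 2)) := by
    apply Real.exp_le_exp.mpr
    have h3 := h1 z.re
    have h4 := h1 z.im
    have h5 : -|Real.log κ| ≤ Real.log κ := neg_abs_le _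
    have h6 : 0 ≤ (4 * r ^ 2 + |Real.log κ|) * ‖z‖ ^ 2 := by positivity
    rw [hz] at h6 ⊢
    nlinarith
  refine h2.trans (le_of_eq ?_)
  rw [Real.exp_add, Real.exp_log hκ0, Real.exp_add, hκ]
  ring

theorem std_closedBall_lower {ρ : ℝ} (hρ : 0 < ρ) : ∃ C : ℝ, 0 < C ∧ ∀ z : ℂ,
    ENNReal.ofReal (Real.exp (-(C * (1 + ‖z‖ ^ 2)))) ≤
      Vale.Agent.P139.A.stdComplexGaussian (Metric.closedBall z ρ) := by
  obtain ⟨C, hC, h⟩ := std_ball_lower hρ
  exact ⟨C, hC, fun z => (h z).trans (measure_mono ball_subset_closedBall)⟩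

end Vale.Agent.P139.R3.H597
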