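import Mathlib

/-!
# P139: a Baire category argument for reversible local dynamics
-/

open Set Filter Topology

namespace Vale.Agent.P139.R3.H597

theorem generic {X : Type*} [MetricSpace X] [CompleteSpace X] [Nonempty X] (D : ℝ → Set X)
    (hD : ∀ T, 0 ≤ T → IsOpen (D T)) (hmono : ∀ S T, 0 ≤ S → S ≤ T → D T ⊆ D S)
    (C : X → X) (hC : Continuous C) (hCC : ∀ x, C (C x) = x) (Ψ : ℝ → X → X)
    (hΨD : ∀ T, 0 ≤ T → ∀ x ∈ D T, Ψ T x ∈ D T)
    (hΨΨ : ∀ T, 0 ≤ T → ∀ x ∈ D T, Ψ T (Ψ T x) = x)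
    (hΨc : ∀ T, 0 ≤ T → ContinuousOn (Ψ T) (D T))
    (hadd : ∀ S T, 0 ≤ S → 0 ≤ T → ∀ x ∈ D S, C (Ψ S x) ∈ D T → x ∈ D (S + T)) :
    (∀ δ, 0 < δ → ¬ Dense (D δ)) ∨
      ((∀ T, 0 ≤ T → Dense (D T)) ∧ {x | ∀ T, 0 ≤ T → x ∈ D T ∧ C x ∈ D T} ∈ residual X) := by
  by_cases h : ∃ δ, 0 < δ ∧ Dense (D δ)
  · right
    obtain ⟨δ, hδ, hd⟩ := h
    have hCpre : ∀ S : Set X, Dense S → Dense (C ⁻¹' S) := by
      intro S hS
      let e : X ≃ₜ X :=
        { toFun := C, invFun := C, left_inv := hCC, right_inv := hCC,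
          continuous_toFun := hC, continuous_invFun := hC }
      exact hS.preimage e.isOpenMap
    have hstep : ∀ T, 0 ≤ T → Dense (D T) → Dense (D (δ + T)) := by
      intro T hT hdT
      rw [dense_iff_inter_open]
      intro U hU hUne
      obtain ⟨x, hxU, hxD⟩ := hd.inter_open_nonempty U hU hUne
      have hW : IsOpen (D δ ∩ Ψ δ ⁻¹' U) :=
        (hΨc δ hδ.le).isOpen_inter_preimage (hD δ hδ.le) hU
      have hxW : Ψ δ x ∈ D δ ∩ Ψ δ ⁻¹' U :=
        ⟨hΨD δ hδ.le x hxD, by rw [mem_preimage, hΨΨ δ hδ.le x hxD]; exact hxU⟩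
      obtain ⟨y, hyW, hy⟩ := (hCpre _ hdT).inter_open_nonempty _ hW ⟨_, hxW⟩
      refine ⟨Ψ δ y, hyW.2, hadd δ T hδ.le hT _ (hΨD δ hδ.le y hyW.1) ?_⟩
      rw [hΨΨ δ hδ.le y hyW.1]
      exact hy
    have hall : ∀ n : ℕ, Dense (D (n * δ)) := by
      intro n
      induction n with
      | zero =>
        apply hd.mono
        apply hmono _ _ (by simp)
        simpa using hδ.le
      | succ n ih =>
        have h1 := hstep (n * δ) (by positivity) ih
        have h2 : ((n + 1 : ℕ) : ℝ) * δ = δ + n * δ := by push_cast; ring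
        rw [h2]
        exact h1
    have hden : ∀ T, 0 ≤ T → Dense (D T) := by
      intro T hT
      obtain ⟨n, hn⟩ := exists_nat_ge (T / δ)
      exact (hall n).mono (hmono T _ hT ((div_le_iff₀ hδ).mp hn))
    refine ⟨hden, ?_⟩
    have hset : {x | ∀ T, 0 ≤ T → x ∈ D T ∧ C x ∈ D T} =
        ⋂ n : ℕ, (D (n : ℝ) ∩ C ⁻¹' D (n : ℝ)) := by
      ext x
      rw [mem_iInter]
      constructor
      · intro hx n
        exact hx n (Nat.cast_nonneg n)
      · intro hx T hT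
        obtain ⟨n, hn⟩ := exists_nat_ge T
        exact ⟨hmono T n hT hn (hx n).1, hmono T n hT hn (hx n).2⟩
    rw [hset, countable_iInter_mem]
    intro n
    have hn : (0 : ℝ) ≤ n := Nat.cast_nonneg n
    exact inter_mem (residual_of_dense_open (hD n hn) (hden n hn))
      (residual_of_dense_open ((hD n hn).preimage hC) (hCpre _ (hden n hn)))
  · left
    intro δ hδ hd
    exact h ⟨δ, hδ, hd⟩

end Vale.Agent.P139.R3.H597
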