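import Vale.Agent.P139.R3.H36.Flow

/-!
# P139: gluing of solutions
-/

open Set Metric Filter Topology MeasureTheory

namespace Vale.Agent.P139.R3.H597

open Vale.Agent.P139.A Vale.Agent.P139.H203 Vale.Agent.P139.R3.H36
open Vale.Agent.P139.R3.H36.HS

variable {d k : ℕ}

lemma U_add_time (s t : ℝ) (a : HS d k) : U (s + t) a = U s (U t a) := by
  ext n
  rw [co_U, co_U, co_U, ← mul_assoc, ← Complex.exp_add]
  congr 2
  push_cast
  ring

lemma U_smul (t : ℝ) (c : ℂ) (a : HS d k) : U t (c • a) = c • U t a := by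
  ext n
  rw [co_U, co_smul, co_smul, co_U]
  ring

/-- the free group as a continuous linear map -/
noncomputable def UL (t : ℝ) : HS d k →L[ℂ] HS d k :=
  LinearMap.mkContinuous
    { toFun := U t
      map_add' := fun a b => by
        ext n
        simp [mul_add]
      map_smul' := fun c a => U_smul t c a } 1 (fun a => by
        rw [one_mul]
        exact (norm_U t a).le)

lemma UL_apply (t : ℝ) (a : HS d k) : UL t a = U t a := rfl

lemma fld_U (m : ℕ) (S t : ℝ) (x : HS d k) :
    fld m t (U (-S) x) = U (-S) (fld m (t - S) x) := by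
  unfold fld
  rw [U_smul, ← U_add_time t (-S) x, ← U_add_time (-S) (-(t - S))]
  congr 2
  · ring

theorem glue (hk : d < 2 * k) {m : ℕ} {S T : ℝ} (hS : 0 ≤ S) (hT : 0 ≤ T) {y z : ℝ → HS d k}
    (hy : Sol m S y) (hz : Sol m T z) (h : z 0 = U S (y S)) :
    ∃ w : ℝ → HS d k, Sol m (S + T) w ∧ (∀ t ∈ Icc 0 S, w t = y t) ∧
      (∀ t ∈ Icc 0 T, U (S + t) (w (S + t)) = U t (z t)) := by
  classical
  let w : ℝ → HS d k := fun t => if t ≤ S then y t else U (-S) (z (t - S))
  have hw1 : ∀ t, t ≤ S → w t = y t := fun t ht => if_pos ht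
  have hw2 : ∀ t, S ≤ t → w t = U (-S) (z (t - S)) := by
    intro t ht
    rcases eq_or_lt_of_le ht with h1 | h1
    · rw [← h1, hw1 S le_rfl, sub_self, h, U_neg_U]
    · exact if_neg (not_le.mpr h1)
  refine ⟨w, ?_, fun t ht => hw1 t ht.2, ?_⟩
  · intro t ht
    have hun : Icc 0 (S + T) = Icc 0 S ∪ Icc S (S + T) :=
      (Icc_union_Icc_eq_Icc hS (by linarith)).symm
    rw [hun]
    refine HasDerivWithinAt.union ?_ ?_
    · rcases le_or_gt t S with h1 | h1
      · have h2 := hy t ⟨ht.1, h1⟩
        rw [hw1 t h1]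
        exact h2.congr (fun s hs => hw1 s hs.2) (hw1 t h1)
      · apply HasFDerivWithinAt.of_notMem_closure
        rw [isClosed_Icc.closure_eq]
        exact fun h2 => absurd h2.2 (not_le.mpr h1)
    · rcases le_or_gt S t with h1 | h1
      · have h2 := hz (t - S) ⟨by linarith, by linarith [ht.2]⟩
        have h3 : HasDerivWithinAt (fun s : ℝ => s - S) 1 (Icc S (S + T)) t :=
          (hasDerivWithinAt_id t _).sub_const S
        have hm : MapsTo (fun s : ℝ => s - S) (Icc S (S + T)) (Icc 0 T) := by
          intro s hs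
          exact ⟨by linarith [hs.1], by linarith [hs.2]⟩
        have h4 := HasDerivWithinAt.scomp t h2 h3 hm
        rw [one_smul] at h4
        have h5 : HasDerivWithinAt (fun s => UL (-S) (z (s - S)))
            (UL (-S) (fld m (t - S) (z (t - S)))) (Icc S (S + T)) t :=
          (((UL (d := d) (k := k) (-S)).restrictScalars ℝ).hasFDerivAt).comp_hasDerivWithinAt t h4
        rw [hw2 t h1, fld_U]
        exact h5.congr (fun s hs => hw2 s hs.1) (hw2 t h1)
      · apply HasFDerivWithinAt.of_notMem_closure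
        rw [isClosed_Icc.closure_eq]
        exact fun h2 => absurd h2.1 (not_le.mpr h1)
  · intro t ht
    rw [hw2 (S + t) (by linarith [ht.1]), ← U_add_time]
    congr 1
    · ring
    · congr 1
      ring

end Vale.Agent.P139.R3.H597
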